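import Vale.Agent.P091.CH.Light
import Vale.Agent.P091.CH.H420.Disc
import Vale.Agent.P091.PET.H514.Avg
import Vale.Agent.P091.H74.Spec

/-!
# P091, TOP: from the Carleson block and the one-grid statement to the grid form of (A)

Frozen interfaces of the rows SWITCH and TOP  (helper814).  Everything lives on
`X K = ZMod (2^K)`; `p ≥ 0` is the function, `N` the partial sum index,
`M = 2^(K-1)` the modulation.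
-/

set_option autoImplicit false

open Finset

noncomputable section

namespace Vale.Agent.P091.TOP

open Vale.Agent.P091.CH

variable {K : ℕ}

/-- symmetric partial sum on the grid -/
def SG (N : ℕ) (p : X K → ℝ) (x : X K) : ℂ :=
  ∑ k ∈ Icc (-(N : ℤ)) (N : ℤ), fc (fun y => (p y : ℂ)) k * ch k x

/-- the modulation frequency -/
def MM (K : ℕ) : ℤ := 2 ^ (K - 1)

/-- the modulated function -/
def fM (p : X K → ℝ) (y : X K) : ℂ := ch (MM K) y * (p y : ℂ)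

/-- the frequency seen by the one-sided operator -/
def N1 (K : ℕ) (N : ℕ) : ℤ := MM K + (N + 1)

/-- the truncated tile sum of `P_DISC` -/
def tiles (κ : ℕ) (N : ℤ) (f : X K → ℂ) (x : X K) : ℂ :=
  ∑ r ∈ range 8, ∑ k ∈ range κ, ∑ j ∈ range (2 ^ k),
    (8:ℂ)⁻¹ * (tl k j N).len * co H420.psi r f (tl k j N) * pk H420.psit r (tl k j N) x

/-- the function `p` with the real letter `c`, on the integers: `p(y) e(-c y / 2^K)` -/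
def Fc (p : X K → ℝ) (c : ℝ) (y : ℤ) : ℂ :=
  (p (y : X K) : ℂ) * Spec.e (-(c * y / 2 ^ K))

/-- S1 (owner 39) -/
def P_S1 : Prop := ∀ (K N : ℕ) (p : X K → ℝ) (x : X K), 3 ≤ K → (∀ y, 0 ≤ p y) →
  8 * (N + 1) ≤ 2 ^ K →
  ‖SG N p x - ((2 * (ch (-MM K) x * CN (N1 K N) (fM p) x).re : ℝ) : ℂ)‖ ≤ 2 * MX p x

/-- S3 (owner 847): the kernel of the symbol `stp κ l` -/
def P_S3 : Prop := ∃ A : ℝ, ∀ (K κ : ℕ) (N : ℤ), κ + 4 ≤ K → 4 * 2 ^ κ ≤ N → N < 2 ^ K →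
  ∃ φ : X K → ℂ, (∀ t, ‖φ t - 1‖ ≤ A * (2 ^ κ * nrm t)) ∧
    (∀ t, ‖φ t‖ ≤ A * (1 + 2 ^ κ * nrm t)⁻¹ ^ 2) ∧
    (∀ t, t ≠ 0 → ker (H420.stp κ (N / 2 ^ κ)) t * (1 - ch 1 t) = 1 - ch N t * φ t)

/-- S4 (owner 827): the kernel `ch N' t φ t / (1 - ch 1 t)` against the Petermichl kernel of the
levels of length `≤ 2^(K-κ)`; `R = 2^ρ` -/
def P_S4 : Prop := ∃ c : ℝ, ∀ A : ℝ, ∃ C : ℝ, ∀ (K κ ρ : ℕ) (N : ℕ) (p : X K → ℝ) (Bp : ℝ)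
  (φ : X K → ℂ) (x : X K), κ + ρ + 3 ≤ K → 4 ≤ ρ → (∀ y, 0 ≤ p y) → (∀ y, p y ≤ Bp) →
  8 * (N + 1) ≤ 2 ^ K →
  (∀ t, ‖φ t - 1‖ ≤ A * (2 ^ κ * nrm t)) → (∀ t, ‖φ t‖ ≤ A * (1 + 2 ^ κ * nrm t)⁻¹ ^ 2) →
  |ave (fun y => p y * (if x - y = 0 then 0 else
      2 * (ch (N + 1) (x - y) * φ (x - y) / (1 - ch 1 (x - y))).re))
    - c * ∑ t ∈ Ioo (-(2:ℤ) ^ K) (2 ^ K), p (x - (t : X K)) *
        Real.sin (2 * Real.pi * (N + 1) * t / 2 ^ K) * PET.PP (2 ^ ρ) (K - ρ - κ - 3) t|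
    ≤ C * (1 + K / 2 ^ ρ) * MX p x + C * (N + 1) * 2 ^ ρ * Bp / 2 ^ K

/-- S5 (owner 39): truncated averaging over the grids -/
def P_S5 : Prop := ∀ (R kap m : ℕ) (F : ℤ → ℂ) (x : ℤ) (B : ℤ), 1 ≤ R → kap ≤ m →
  4 * (R:ℤ) * 2 ^ kap ≤ B →
  ∑ k ∈ range R, ∑ a ∈ Ico (0:ℤ) (((R + k : ℕ) : ℤ) * 2 ^ (m + 1)),
      ((1 / (((R + k : ℕ) : ℝ) * (((R + k : ℕ) : ℝ) * 2 ^ (m + 1))) : ℝ) : ℂ)
        * PET.Sh (R + k) kap a F x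
      = ∑ t ∈ Ioo (-B) B, ((PET.PP R kap t / 16 : ℝ) : ℂ) * F (x - t)

/-- SWITCH (glue): the partial sum is controlled by the light part and the average over the
grids of the fine part, with absolute values inside the average -/
def P_SW : Prop := ∃ C : ℝ, ∀ (K κ ρ m : ℕ) (N : ℕ) (p : X K → ℝ) (Bp : ℝ) (x : X K),
  κ + ρ + 3 ≤ K → 4 ≤ ρ → K - ρ - κ - 3 ≤ m → (∀ y, 0 ≤ p y) → (∀ y, p y ≤ Bp) →
  8 * (N + 1) ≤ 2 ^ K →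
  ‖SG N p x‖ ≤ 2 * ‖tiles κ (N1 K N) (fM p) x‖
    + C * ∑ k ∈ range (2 ^ ρ), ∑ a ∈ Ico (0:ℤ) (((2 ^ ρ + k : ℕ) : ℤ) * 2 ^ (m + 1)),
        (1 / (((2 ^ ρ + k : ℕ) : ℝ) * (((2 ^ ρ + k : ℕ) : ℝ) * 2 ^ (m + 1))))
          * ‖PET.Sh (2 ^ ρ + k) (K - ρ - κ - 3) a (Fc p (N + 1)) (x.val : ℤ)‖
    + C * (1 + K / 2 ^ ρ) * MX p x + C * (N + 1) * 2 ^ ρ * Bp / 2 ^ K

/-- LETTER (owner 69): all levels of one grid, change of the letter -/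
def P_LET : Prop := ∀ A : ℝ, ∃ C : ℝ, ∀ (K r kap : ℕ) (a : ℤ) (p : X K → ℝ) (c c' : ℝ) (x : X K),
  1 ≤ r → 4 * r * 2 ^ kap ≤ 2 ^ K → (∀ y, 0 ≤ p y) → |c - c'| * (r * 2 ^ kap) ≤ A * 2 ^ K →
  ‖Spec.e (c * x.val / 2 ^ K) * PET.Sh r kap a (Fc p c) (x.val : ℤ)
    - Spec.e (c' * x.val / 2 ^ K) * PET.Sh r kap a (Fc p c') (x.val : ℤ)‖ ≤ C * MX p x

end Vale.Agent.P091.TOP
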