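import Vale.Agent.P091.TOP.Props
import Vale.Agent.P091.H750.GridRow
import Vale.Agent.P091.H253.T0

/-!
# P091, TOP: the three closed pieces of `P_LIGHTN → P_MSU → P_SW → P_LET → GRIDROW → PGRID`

* `P_CAP` (from `P_MSU`): the stopping rule `κ`, capped at a level `k0` depending on the bound of
  the indices only; every point carries a letter (integer frequency) and a window;
* `P_GU` (from `GRIDROW` and `P_LET`): one grid, all alive points;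
* `P_LU` (from `P_LIGHTN`): the light part in `L¹`.
-/

set_option autoImplicit false

open Finset

noncomputable section

namespace Vale.Agent.P091.TOP

open Vale.Agent.P091.CH

/-- CAP (owner 847), from `P_MSU` -/
def P_CAP : Prop := ∃ C : ℝ, 0 ≤ C ∧ ∀ (K k0 N0 : ℕ) (N : X K → ℕ) (δ : ℝ), 0 < δ → δ ≤ 1 →
  k0 + 6 ≤ K → 8 * (N0 + 1) ≤ 2 ^ K → N0 + 1 ≤ 2 ^ k0 → (∀ x, N x ≤ N0) →
  ∃ (κ : X K → ℕ) (U : Type) (_ : Fintype U) (c : U → ℤ) (V : U → Finset ℤ) (u : X K → U),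
    (∀ x, κ x ≤ k0) ∧ StopLe univ (fun x => N1 K (N x)) κ δ ∧
    (∀ k, |c k| ≤ 13 * 2 ^ k0) ∧
    (∀ x, |(N x : ℤ) + 1 - c (u x)| ≤ 12 * 2 ^ κ x) ∧
    (∀ (x : X K) (s : ℤ) (L : ℕ), L ≤ 2 ^ (K - κ x) → s ≤ (x.val : ℤ) → (x.val : ℤ) < s + L →
      Ico s (s + L) ⊆ V (u x)) ∧
    (∑ k, ((V k).card : ℝ)) * δ ≤ C * 2 ^ K

/-- GU (owner 663), from `GRIDROW` and `P_LET` -/
def P_GU : Prop := ∀ C0 : ℝ, 0 ≤ C0 → ∃ C : ℝ, 0 ≤ C ∧ ∀ (D : ℝ), 2 ≤ D →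
  ∀ (K ρ k0 r : ℕ) (a : ℤ) (p : X K → ℝ) (N : X K → ℕ) (κ : X K → ℕ)
    (U : Type) [Fintype U] (c : U → ℤ) (V : U → Finset ℤ) (u : X K → U) (W : Finset (X K)),
    k0 + ρ + 3 ≤ K → 2 ^ ρ ≤ r → r < 2 ^ (ρ + 1) →
    (∀ y, 0 ≤ p y) → (∀ y, p y ≤ Real.exp D) → ave p ≤ 1 →
    (∀ x, κ x ≤ k0) → (∀ k, K * 2 ^ (ρ + 1) * |c k| ≤ 2 ^ K) →
    (∀ x, |(N x : ℤ) + 1 - c (u x)| ≤ 12 * 2 ^ κ x) →
    (∀ (x : X K) (s : ℤ) (L : ℕ), L ≤ 2 ^ (K - κ x) → s ≤ (x.val : ℤ) → (x.val : ℤ) < s + L →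
      Ico s (s + L) ⊆ V (u x)) →
    (∑ k, ((V k).card : ℝ) ≤ Real.exp (C0 * D) * 2 ^ K) →
    (∀ x ∈ W, MX p x ≤ 1 / 2 * Real.log D ^ 2) →
    ∑ x ∈ W, ‖PET.Sh r (K - ρ - κ x - 3) a (Fc p ((N x : ℝ) + 1)) (x.val : ℤ)‖ ≤ C * D * 2 ^ K

/-- LU (owner 814), from `P_LIGHTN` -/
def P_LU : Prop := ∃ C : ℝ, 0 ≤ C ∧ ∀ (D : ℝ), 2 ≤ D → ∀ (K : ℕ) (p : X K → ℝ) (N : X K → ℕ)
  (κ : X K → ℕ), 8 ≤ K → (∀ y, 0 ≤ p y) → (∀ y, p y ≤ Real.exp D) →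
  (∀ x, 8 * (N x + 1) ≤ 2 ^ K) → (∀ x, κ x + 6 ≤ K) →
  StopLe univ (fun x => N1 K (N x)) κ (Real.exp (-4 * D)) →
  ave (fun x => ‖tiles (κ x) (N1 K (N x)) (fM p) x‖) ≤ C

end Vale.Agent.P091.TOP
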